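import Vale.Agent.P235.S.H885.Enc

/-!
P235, static lemma (S).  Bijection between pairs of half states and band permutations.
-/

namespace Vale.Agent.P235.S.H885

open Finset

variable {k : ℕ}

/-- Band permutations of 2k points: the Bruhat ideal of the k x k block swap. -/
def band (k : ℕ) : Finset (Equiv.Perm (Fin (2 * k))) :=
  univ.filter fun v => ∀ x, (v x).val ≤ x.val + k ∧ x.val ≤ (v x).val + k

/-- Number of entries that cross the middle level. -/
def rr (v : Equiv.Perm (Fin (2 * k))) : ℕ :=
  (univ.filter fun x : Fin (2 * k) => x.val < k ∧ k ≤ (v x).val).card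

theorem mem_band {v : Equiv.Perm (Fin (2 * k))} :
    v ∈ band k ↔ ∀ x, (v x).val ≤ x.val + k ∧ x.val ≤ (v x).val + k := by
  unfold band
  rw [mem_filter]
  exact and_iff_right (mem_univ _)

/-- From positions to letters. -/
def U (v : Equiv.Perm (Fin (2 * k))) : Bool × Fin k ≃ Bool × Fin k :=
  (posE k).trans (v.trans (valE k).symm)

theorem valE_U (v : Equiv.Perm (Fin (2 * k))) (x : Bool × Fin k) :
    valE k (U v x) = v (posE k x) := by
  unfold U
  simp

theorem U_phi (S : Bool → Finset (Fin k)) (P : Bool → Equiv.Perm (Fin k))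
    (h : ∀ s, (S s).card = (S (!s)).card) (s : Bool) (t : Fin k) :
    U (phi S P h) (s, P s t) = lf S (s, t) := by
  apply (valE k).injective
  rw [valE_U, phi_apply]

theorem bool_ne (s : Bool) : (!s) ≠ s := by cases s <;> simp

/-- The set of crossing labels is determined by the permutation. -/
theorem mem_S_iff (S : Bool → Finset (Fin k)) (P : Bool → Equiv.Perm (Fin k))
    (h : ∀ s, (S s).card = (S (!s)).card) (s : Bool) (t : Fin k) :
    t ∈ S s ↔ ((U (phi S P h)).symm (!s, t)).1 = s := by
  constructor
  · intro ht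
    have h1 := U_phi S P h s t
    rw [lf_mem ht] at h1
    rw [← h1, Equiv.symm_apply_apply]
  · intro h1
    by_contra ht
    have h2 : lf S (!s, th (S s) (S (!s)) t) = (!s, t) := by
      have h3 : th (S s) (S (!s)) t ∉ S (!s) := (th_spec (h s) ht).1
      rw [lf_not h3]
      simp only [Bool.not_not]
      rw [th_th (h s) ht]
    have h4 := U_phi S P h (!s) (th (S s) (S (!s)) t)
    rw [h2] at h4
    rw [← h4, Equiv.symm_apply_apply] at h1
    exact bool_ne s h1

theorem phi_inj {S S' : Bool → Finset (Fin k)} {P P' : Bool → Equiv.Perm (Fin k)}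
    {h : ∀ s, (S s).card = (S (!s)).card} {h' : ∀ s, (S' s).card = (S' (!s)).card}
    (he : phi S P h = phi S' P' h') : S = S' ∧ P = P' := by
  have hS : S = S' := by
    funext s
    ext t
    rw [mem_S_iff S P h s t, mem_S_iff S' P' h' s t, he]
  refine ⟨hS, ?_⟩
  subst hS
  funext s
  apply Equiv.ext
  intro t
  have h1 := U_phi S P h s t
  have h2 := U_phi S P' h' s t
  rw [← h2, he] at h1
  have := (U (phi S P' h')).injective h1
  exact (Prod.mk.inj this).2

theorem phi_band {S : Bool → Finset (Fin k)} {P : Bool → Equiv.Perm (Fin k)}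
    (h : ∀ s, (S s).card = (S (!s)).card) (hok : ∀ s, ∀ t ∈ S s, t ≤ P s t) :
    phi S P h ∈ band k := by
  rw [mem_band]
  intro x
  obtain ⟨⟨s, b⟩, rfl⟩ := (posE k).surjective x
  obtain ⟨t, rfl⟩ := (P s).surjective b
  rw [phi_apply]
  have hb := (P s t).isLt
  have ht := t.isLt
  cases s
  · by_cases hm : t ∈ S false
    · rw [lf_mem hm]
      have h1 : t.val ≤ (P false t).val := hok false t hm
      simp only [Bool.not_false]
      rw [valE_true, posE_false]
      omega
    · rw [lf_not hm]
      rw [valE_false, posE_false]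
      have := (th (S false) (S (!false)) t).isLt
      omega
  · by_cases hm : t ∈ S true
    · rw [lf_mem hm]
      have h1 : t.val ≤ (P true t).val := hok true t hm
      simp only [Bool.not_true]
      rw [valE_false, posE_true]
      omega
    · rw [lf_not hm]
      rw [valE_true, posE_true]
      have := (th (S true) (S (!true)) t).isLt
      omega

/-- Crossing letters of a band permutation. -/
theorem band_cross {v : Equiv.Perm (Fin (2 * k))} (hv : v ∈ band k) {s : Bool} {b t : Fin k}
    (h : U v (s, b) = (!s, t)) : t ≤ b := by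
  have h1 := valE_U v (s, b)
  rw [h] at h1
  have h2 := (mem_band.1 hv) (posE k (s, b))
  rw [← h1] at h2
  have hb := b.isLt
  have ht := t.isLt
  show t.val ≤ b.val
  cases s
  · simp only [Bool.not_false] at h2
    rw [valE_true, posE_false] at h2
    omega
  · simp only [Bool.not_true] at h2
    rw [valE_false, posE_true] at h2
    omega

/-- Crossing labels of a permutation. -/
def SS (v : Equiv.Perm (Fin (2 * k))) (s : Bool) : Finset (Fin k) :=
  univ.filter fun t => ((U v).symm (!s, t)).1 = s

theorem mem_SS {v : Equiv.Perm (Fin (2 * k))} {s : Bool} {t : Fin k} :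
    t ∈ SS v s ↔ ((U v).symm (!s, t)).1 = s := by
  unfold SS
  rw [mem_filter]
  exact and_iff_right (mem_univ _)

theorem card_SS_aux (u : Bool × Fin k ≃ Bool × Fin k) (s : Bool) :
    (univ.filter fun t => (u.symm (!s, t)).1 = s).card =
      (univ.filter fun b => (u (s, b)).1 = !s).card := by
  apply Finset.card_bij (fun t _ => (u.symm (!s, t)).2)
  · intro t ht
    have h1 : (u.symm (!s, t)).1 = s := (mem_filter.1 ht).2
    rw [mem_filter]
    refine ⟨mem_univ _, ?_⟩
    have h2 : (s, (u.symm (!s, t)).2) = u.symm (!s, t) := Prod.ext h1.symm rfl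
    rw [h2, Equiv.apply_symm_apply]
  · intro t ht t' ht' he
    have h1 : (u.symm (!s, t)).1 = s := (mem_filter.1 ht).2
    have h1' : (u.symm (!s, t')).1 = s := (mem_filter.1 ht').2
    have h3 : u.symm (!s, t) = u.symm (!s, t') := Prod.ext (h1.trans h1'.symm) he
    have h4 := u.symm.injective h3
    exact (Prod.mk.inj h4).2
  · intro b hb
    have h1 : (u (s, b)).1 = !s := (mem_filter.1 hb).2
    have h2 : (!s, (u (s, b)).2) = u (s, b) := Prod.ext h1.symm rfl
    refine ⟨(u (s, b)).2, ?_, ?_⟩
    · rw [mem_filter]
      refine ⟨mem_univ _, ?_⟩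
      rw [h2, Equiv.symm_apply_apply]
    · rw [h2, Equiv.symm_apply_apply]

theorem card_SS (v : Equiv.Perm (Fin (2 * k))) (s : Bool) :
    (SS v s).card = (SS v (!s)).card := by
  -- both equal the number of letters of type s missing in the half s
  have e1 : (SS v s).card = (univ.filter fun b => (U v (s, b)).1 = !s).card :=
    card_SS_aux (U v) s
  -- rows of the half s with a letter of type s, and letters of type s in the half s
  have e2 : (univ.filter fun b => (U v (s, b)).1 = s).card =
      (univ.filter fun t => ((U v).symm (s, t)).1 = s).card := by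
    apply Finset.card_bij (fun b _ => (U v (s, b)).2)
    · intro b hb
      have h1 : (U v (s, b)).1 = s := (mem_filter.1 hb).2
      rw [mem_filter]
      refine ⟨mem_univ _, ?_⟩
      have h2 : (s, (U v (s, b)).2) = U v (s, b) := Prod.ext h1.symm rfl
      rw [h2, Equiv.symm_apply_apply]
    · intro t ht t' ht' he
      have h1 : (U v (s, t)).1 = s := (mem_filter.1 ht).2
      have h1' : (U v (s, t')).1 = s := (mem_filter.1 ht').2
      have h3 : U v (s, t) = U v (s, t') := Prod.ext (h1.trans h1'.symm) he
      have h4 := (U v).injective h3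
      exact (Prod.mk.inj h4).2
    · intro t ht
      have h1 : ((U v).symm (s, t)).1 = s := (mem_filter.1 ht).2
      have h2 : (s, ((U v).symm (s, t)).2) = (U v).symm (s, t) := Prod.ext h1.symm rfl
      refine ⟨((U v).symm (s, t)).2, ?_, ?_⟩
      · rw [mem_filter]
        refine ⟨mem_univ _, ?_⟩
        rw [h2, Equiv.apply_symm_apply]
      · rw [h2, Equiv.apply_symm_apply]
  have c1 := Finset.card_filter_add_card_filter_not (s := (univ : Finset (Fin k)))
    (fun b => (U v (s, b)).1 = s)
  have c2 := Finset.card_filter_add_card_filter_not (s := (univ : Finset (Fin k)))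
    (fun t => ((U v).symm (s, t)).1 = s)
  have f1 : (univ.filter fun b => ¬ (U v (s, b)).1 = s) =
      (univ.filter fun b => (U v (s, b)).1 = !s) := by
    apply Finset.filter_congr
    intro b _
    cases s <;> simp
  have f2 : (univ.filter fun t => ¬ ((U v).symm (s, t)).1 = s) = SS v (!s) := by
    unfold SS
    apply Finset.filter_congr
    intro b _
    cases s <;> simp
  rw [f1] at c1
  rw [f2] at c2
  rw [e1]
  omega

/-- Every label sits in its own half. -/
theorem lf_half (v : Equiv.Perm (Fin (2 * k))) (s : Bool) (t : Fin k) :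
    ((U v).symm (lf (SS v) (s, t))).1 = s := by
  by_cases ht : t ∈ SS v s
  · rw [lf_mem ht]
    exact mem_SS.1 ht
  · rw [lf_not ht]
    have h1 : th (SS v s) (SS v (!s)) t ∉ SS v (!s) := (th_spec (card_SS v s) ht).1
    rw [mem_SS] at h1
    simp only [Bool.not_not] at h1
    generalize ((U v).symm (s, th (SS v s) (SS v (!s)) t)).1 = b at h1 ⊢
    cases s <;> cases b <;> simp_all

theorem row_bij (v : Equiv.Perm (Fin (2 * k))) (s : Bool) :
    Function.Bijective fun t : Fin k => ((U v).symm (lf (SS v) (s, t))).2 := by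
  rw [← Finite.injective_iff_bijective]
  intro t t' he
  have he' : ((U v).symm (lf (SS v) (s, t))).2 = ((U v).symm (lf (SS v) (s, t'))).2 := he
  have h3 : (U v).symm (lf (SS v) (s, t)) = (U v).symm (lf (SS v) (s, t')) :=
    Prod.ext ((lf_half v s t).trans (lf_half v s t').symm) he'
  have h4 := (U v).symm.injective h3
  have h5 : lE (SS v) (card_SS v) (s, t) = lE (SS v) (card_SS v) (s, t') := h4
  exact (Prod.mk.inj ((lE (SS v) (card_SS v)).injective h5)).2

/-- Rows of the labels of a permutation. -/
noncomputable def PP (v : Equiv.Perm (Fin (2 * k))) (s : Bool) : Equiv.Perm (Fin k) :=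
  Equiv.ofBijective _ (row_bij v s)

theorem U_PP (v : Equiv.Perm (Fin (2 * k))) (s : Bool) (t : Fin k) :
    U v (s, PP v s t) = lf (SS v) (s, t) := by
  have h1 : (s, PP v s t) = (U v).symm (lf (SS v) (s, t)) :=
    Prod.ext (lf_half v s t).symm rfl
  rw [h1, Equiv.apply_symm_apply]

theorem phi_PP (v : Equiv.Perm (Fin (2 * k))) : phi (SS v) (PP v) (card_SS v) = v := by
  apply Equiv.ext
  intro x
  obtain ⟨⟨s, b⟩, rfl⟩ := (posE k).surjective x
  obtain ⟨t, rfl⟩ := (PP v s).surjective b
  rw [phi_apply, ← U_PP, valE_U]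

theorem ok_PP {v : Equiv.Perm (Fin (2 * k))} (hv : v ∈ band k) (s : Bool) (t : Fin k)
    (ht : t ∈ SS v s) : t ≤ PP v s t := by
  have h1 := U_PP v s t
  rw [lf_mem ht] at h1
  exact band_cross hv h1

/-- The crossing number of the coded permutation. -/
theorem rr_phi (S : Bool → Finset (Fin k)) (P : Bool → Equiv.Perm (Fin k))
    (h : ∀ s, (S s).card = (S (!s)).card) : rr (phi S P h) = (S true).card := by
  unfold rr
  symm
  apply Finset.card_bij (fun t _ => posE k (true, P true t))
  · intro t ht
    rw [mem_filter]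
    refine ⟨mem_univ _, ?_⟩
    rw [phi_apply, lf_mem ht]
    have := (P true t).isLt
    simp only [Bool.not_true]
    rw [posE_true, valE_false]
    omega
  · intro t _ t' _ he
    have h1 := (posE k).injective he
    exact (P true).injective (Prod.mk.inj h1).2
  · intro x hx
    obtain ⟨⟨s, b⟩, rfl⟩ := (posE k).surjective x
    obtain ⟨t, rfl⟩ := (P s).surjective b
    rw [mem_filter] at hx
    obtain ⟨_, h1, h2⟩ := hx
    rw [phi_apply] at h2
    cases s
    · exfalso
      rw [posE_false] at h1
      have := (P false t).isLt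
      omega
    · refine ⟨t, ?_, rfl⟩
      by_contra ht
      rw [lf_not ht] at h2
      rw [valE_true] at h2
      have := (th (S true) (S (!true)) t).isLt
      omega

end Vale.Agent.P235.S.H885
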