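import Mathlib

/-!
P235, static lemma (S).  Definitions of the half states.
A half state is a pair (C, p): C a set of labels, p a permutation of the labels
(label t sits in row p t), with t <= p t for t in C.
-/

namespace Vale.Agent.P235.S.H885

open Finset

variable {k : ℕ}

/-- Flux of p through the cut c. -/
def flux (p : Equiv.Perm (Fin k)) (c : Fin k) : ℕ :=
  (univ.filter fun a => a < c ∧ c ≤ p a).card

/-- The label c is usable for p. -/
def Usable (M : ℕ) (p : Equiv.Perm (Fin k)) (c : Fin k) : Prop :=
  c ≤ p c ∨ c.val ≤ (p c).val + M * flux p c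

/-- The label c is clean for C. -/
def Clean (M : ℕ) (C : Finset (Fin k)) (c : Fin k) : Prop :=
  ∀ b : Fin k, b < c → 2 * M * (C.filter fun x => b ≤ x ∧ x < c).card ≤ c.val - b.val

/-- Neither neighbour of c belongs to C. -/
def Isolated (C : Finset (Fin k)) (c : Fin k) : Prop :=
  ∀ x ∈ C, x.val + 1 ≠ c.val ∧ c.val + 1 ≠ x.val

/-- Number of missing labels below c. -/
def mis (C : Finset (Fin k)) (c : Fin k) : ℕ :=
  (univ.filter fun x => x < c ∧ x ∉ C).card

/-- The partner labels (a = c means: nothing to do). -/
def cand (C : Finset (Fin k)) (p : Equiv.Perm (Fin k)) (c : Fin k) : Finset (Fin k) :=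
  if c ≤ p c then {c} else univ.filter fun a => a < c ∧ c ≤ p a ∧ (a ∉ C ∨ a ≤ p c)

instance (M : ℕ) (p : Equiv.Perm (Fin k)) (c : Fin k) : Decidable (Usable M p c) := by
  unfold Usable; infer_instance

instance (M : ℕ) (C : Finset (Fin k)) (c : Fin k) : Decidable (Clean M C c) := by
  unfold Clean; infer_instance

instance (C : Finset (Fin k)) (c : Fin k) : Decidable (Isolated C c) := by
  unfold Isolated; infer_instance

end Vale.Agent.P235.S.H885
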