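import Vale.Agent.P235.S.H885.Main

/-!
P235, static lemma (S).  Labels, letters, rows: the permutation coded by a pair of half states.
-/

namespace Vale.Agent.P235.S.H885

open Finset

variable {k : ℕ}

theorem mis_le {C : Finset (Fin k)} {c c' : Fin k} (h : c ≤ c') : mis C c ≤ mis C c' := by
  unfold mis
  apply Finset.card_le_card
  intro x hx
  rw [mem_filter] at hx ⊢
  exact ⟨hx.1, hx.2.1.trans_le h, hx.2.2⟩

/-- The missing label of D with the rank of t. -/
noncomputable def th (C D : Finset (Fin k)) (t : Fin k) : Fin k :=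
  if h : ∃ d, d ∉ D ∧ mis D d = mis C t then h.choose else t

theorem th_spec {C D : Finset (Fin k)} (h : C.card = D.card) {t : Fin k} (ht : t ∉ C) :
    th C D t ∉ D ∧ mis D (th C D t) = mis C t := by
  have hex : ∃ d, d ∉ D ∧ mis D d = mis C t := exists_partner h ht
  unfold th
  rw [dif_pos hex]
  exact hex.choose_spec

theorem th_eq {C D : Finset (Fin k)} (h : C.card = D.card) {t d : Fin k} (ht : t ∉ C)
    (hd : d ∉ D) (hm : mis C t = mis D d) : th C D t = d :=
  mis_inj (th_spec h ht).1 hd ((th_spec h ht).2.trans hm)

theorem th_th {C D : Finset (Fin k)} (h : C.card = D.card) {t : Fin k} (ht : t ∉ C) :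
    th D C (th C D t) = t :=
  th_eq h.symm (th_spec h ht).1 ht (th_spec h ht).2

theorem th_lt {C D : Finset (Fin k)} (h : C.card = D.card) {t t' : Fin k} (ht : t ∉ C)
    (ht' : t' ∉ C) (hlt : t < t') : th C D t < th C D t' := by
  by_contra hcon
  have h1 := mis_le (C := D) (not_lt.1 hcon)
  rw [(th_spec h ht).2, (th_spec h ht').2] at h1
  exact absurd (mis_lt hlt ht) (not_lt.2 h1)

theorem mis_insert {C : Finset (Fin k)} {c t : Fin k} (hc : c ∉ C) :
    mis (insert c C) t + (if c < t then 1 else 0) = mis C t := by
  unfold mis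
  by_cases h : c < t
  · rw [if_pos h]
    have : (univ.filter fun x => x < t ∧ x ∉ C) =
        insert c (univ.filter fun x => x < t ∧ x ∉ insert c C) := by
      ext x
      rw [mem_insert, mem_filter, mem_filter, mem_insert]
      by_cases hx : x = c
      · subst hx; simp [h, hc]
      · simp [hx]
    rw [this, Finset.card_insert_of_notMem]
    rw [mem_filter]
    simp
  · rw [if_neg h, add_zero]
    congr 1
    ext x
    rw [mem_filter, mem_filter, mem_insert]
    by_cases hx : x = c
    · subst hx; simp [h]
    · simp [hx]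

theorem th_insert {C D : Finset (Fin k)} (h : C.card = D.card) {c d t : Fin k} (hc : c ∉ C)
    (hd : d ∉ D) (hm : mis C c = mis D d) (ht : t ∉ C) (htc : t ≠ c) :
    th (insert c C) (insert d D) t = th C D t := by
  obtain ⟨s1, s2⟩ := th_spec h ht
  have hne : th C D t ≠ d := by
    intro he
    rw [he] at s2
    exact htc (mis_inj ht hc (s2.symm.trans hm.symm))
  have hcard : (insert c C).card = (insert d D).card := by
    rw [Finset.card_insert_of_notMem hc, Finset.card_insert_of_notMem hd, h]
  apply th_eq hcard
  · simp [htc, ht]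
  · simp [hne, s1]
  · have e1 := mis_insert (t := t) hc
    have e2 := mis_insert (t := th C D t) hd
    have hiff : c < t ↔ d < th C D t := by
      constructor
      · intro hlt
        by_contra hcon
        have h1 := mis_le (C := D) (not_lt.1 hcon)
        rw [s2, ← hm] at h1
        exact absurd (mis_lt hlt hc) (not_lt.2 h1)
      · intro hlt
        by_contra hcon
        have h1 := mis_le (C := C) (not_lt.1 hcon)
        have h2 := mis_lt hlt hd
        rw [s2, ← hm] at h2
        omega
    by_cases hlt : c < t
    · rw [if_pos hlt] at e1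
      rw [if_pos (hiff.1 hlt)] at e2
      omega
    · rw [if_neg hlt] at e1
      rw [if_neg (fun hh => hlt (hiff.2 hh))] at e2
      omega

/-- The letter of a label. -/
noncomputable def lf (S : Bool → Finset (Fin k)) (x : Bool × Fin k) : Bool × Fin k :=
  if x.2 ∈ S x.1 then (!x.1, x.2) else (x.1, th (S x.1) (S (!x.1)) x.2)

theorem lf_mem {S : Bool → Finset (Fin k)} {s : Bool} {t : Fin k} (h : t ∈ S s) :
    lf S (s, t) = (!s, t) := by
  unfold lf; rw [if_pos h]

theorem lf_not {S : Bool → Finset (Fin k)} {s : Bool} {t : Fin k} (h : t ∉ S s) :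
    lf S (s, t) = (s, th (S s) (S (!s)) t) := by
  unfold lf; rw [if_neg h]

theorem lf_lf {S : Bool → Finset (Fin k)} (h : ∀ s, (S s).card = (S (!s)).card)
    (x : Bool × Fin k) : lf (fun s => S (!s)) (lf S x) = x := by
  obtain ⟨s, t⟩ := x
  by_cases ht : t ∈ S s
  · rw [lf_mem ht]
    have : t ∈ (fun s => S (!s)) (!s) := by simpa using ht
    rw [lf_mem (S := fun s => S (!s)) this]
    simp
  · rw [lf_not ht]
    have h1 : th (S s) (S (!s)) t ∉ (fun s => S (!s)) s := (th_spec (h s) ht).1
    rw [lf_not (S := fun s => S (!s)) h1]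
    simp only [Bool.not_not]
    rw [th_th (h s) ht]

/-- The letter map as an equivalence. -/
noncomputable def lE (S : Bool → Finset (Fin k)) (h : ∀ s, (S s).card = (S (!s)).card) :
    Bool × Fin k ≃ Bool × Fin k where
  toFun := lf S
  invFun := lf (fun s => S (!s))
  left_inv := lf_lf h
  right_inv := by
    intro x
    have h2 : ∀ s, ((fun s => S (!s)) s).card = ((fun s => S (!s)) (!s)).card := by
      intro s
      have := h (!s)
      simpa using this
    have := lf_lf h2 x
    simpa using this

/-- Rows. -/
def rE (P : Bool → Equiv.Perm (Fin k)) : Bool × Fin k ≃ Bool × Fin k :=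
  Equiv.prodShear (Equiv.refl Bool) P

theorem rE_apply (P : Bool → Equiv.Perm (Fin k)) (s : Bool) (t : Fin k) :
    rE P (s, t) = (s, P s t) := rfl

/-- Positions. -/
def posE (k : ℕ) : Bool × Fin k ≃ Fin (2 * k) where
  toFun x := if x.1 then ⟨x.2.val, by have := x.2.isLt; omega⟩
    else ⟨2 * k - 1 - x.2.val, by have := x.2.isLt; omega⟩
  invFun y := if h : y.val < k then (true, ⟨y.val, h⟩)
    else (false, ⟨2 * k - 1 - y.val, by have := y.isLt; omega⟩)
  left_inv := by
    rintro ⟨s, t⟩
    have := t.isLt
    cases s
    · have h1 : ¬ (2 * k - 1 - t.val < k) := by omega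
      simp only [Bool.false_eq_true, if_false, h1, dif_neg, not_false_iff]
      refine Prod.ext rfl (Fin.ext ?_)
      show 2 * k - 1 - (2 * k - 1 - t.val) = t.val
      omega
    · simp
  right_inv := by
    intro y
    have := y.isLt
    by_cases h : y.val < k
    · simp [h]
    · simp only [h, dif_neg, not_false_iff, Bool.false_eq_true, if_false]
      refine Fin.ext ?_
      show 2 * k - 1 - (2 * k - 1 - y.val) = y.val
      omega

/-- Values. -/
def valE (k : ℕ) : Bool × Fin k ≃ Fin (2 * k) where
  toFun x := if x.1 then ⟨k - 1 - x.2.val, by have := x.2.isLt; omega⟩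
    else ⟨k + x.2.val, by have := x.2.isLt; omega⟩
  invFun y := if h : y.val < k then (true, ⟨k - 1 - y.val, by omega⟩)
    else (false, ⟨y.val - k, by have := y.isLt; omega⟩)
  left_inv := by
    rintro ⟨s, t⟩
    have := t.isLt
    cases s
    · have h1 : ¬ (k + t.val < k) := by omega
      simp only [Bool.false_eq_true, if_false, h1, dif_neg, not_false_iff]
      refine Prod.ext rfl (Fin.ext ?_)
      show k + t.val - k = t.val
      omega
    · have h1 : k - 1 - t.val < k := by omega
      simp only [if_true, h1, dif_pos]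
      refine Prod.ext rfl (Fin.ext ?_)
      show k - 1 - (k - 1 - t.val) = t.val
      omega
  right_inv := by
    intro y
    have := y.isLt
    by_cases h : y.val < k
    · simp only [h, dif_pos, if_true]
      refine Fin.ext ?_
      show k - 1 - (k - 1 - y.val) = y.val
      omega
    · simp only [h, dif_neg, not_false_iff, Bool.false_eq_true, if_false]
      refine Fin.ext ?_
      show k + (y.val - k) = y.val
      omega

theorem posE_true (t : Fin k) : (posE k (true, t)).val = t.val := rfl
theorem posE_false (t : Fin k) : (posE k (false, t)).val = 2 * k - 1 - t.val := rfl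
theorem valE_true (t : Fin k) : (valE k (true, t)).val = k - 1 - t.val := rfl
theorem valE_false (t : Fin k) : (valE k (false, t)).val = k + t.val := rfl

/-- The coded permutation. -/
noncomputable def phi (S : Bool → Finset (Fin k)) (P : Bool → Equiv.Perm (Fin k))
    (h : ∀ s, (S s).card = (S (!s)).card) : Equiv.Perm (Fin (2 * k)) :=
  ((rE P).trans (posE k)).symm.trans ((lE S h).trans (valE k))

theorem phi_apply (S : Bool → Finset (Fin k)) (P : Bool → Equiv.Perm (Fin k))
    (h : ∀ s, (S s).card = (S (!s)).card) (s : Bool) (t : Fin k) :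
    phi S P h (posE k (s, P s t)) = valE k (lf S (s, t)) := by
  unfold phi
  rw [← rE_apply P s t]
  show ((lE S h).trans (valE k)) (((rE P).trans (posE k)).symm (posE k (rE P (s, t)))) = _
  have : posE k (rE P (s, t)) = ((rE P).trans (posE k)) (s, t) := rfl
  rw [this, Equiv.symm_apply_apply]
  rfl

theorem swap_mul {X Y : Type*} [DecidableEq X] [DecidableEq Y] (e g : X ≃ Y) (x0 x1 : X) :
    (e.symm.trans g : Equiv.Perm Y) * Equiv.swap (e x0) (e x1) =
      e.symm.trans ((Equiv.swap x0 x1).trans g) := by
  apply Equiv.ext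
  intro y
  obtain ⟨x, rfl⟩ := e.surjective y
  simp only [Equiv.Perm.mul_apply, Equiv.trans_apply, Equiv.symm_apply_apply]
  by_cases h0 : x = x0
  · subst h0; simp
  · by_cases h1 : x = x1
    · subst h1; simp
    · rw [Equiv.swap_apply_of_ne_of_ne h0 h1,
        Equiv.swap_apply_of_ne_of_ne (fun hh => h0 (e.injective hh))
          (fun hh => h1 (e.injective hh)), Equiv.symm_apply_apply]

end Vale.Agent.P235.S.H885
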