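import Vale.Agent.P235.S.H885.Defs

/-!
P235, static lemma (S).  Candidates and the load of one half.
-/

namespace Vale.Agent.P235.S.H885

open Finset

variable {k : ℕ}

/-- Usable and clean labels have many candidates. -/
theorem flux_le_cand {M : ℕ} {C : Finset (Fin k)} {p : Equiv.Perm (Fin k)}
    {c : Fin k} (hd : p c < c) (hu : Usable M p c) (hcl : Clean M C c) :
    0 < flux p c ∧ flux p c ≤ 2 * (cand C p c).card := by
  have hu' : c.val ≤ (p c).val + M * flux p c := by
    rcases hu with h | h
    · exact absurd h (not_le.2 hd)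
    · exact h
  have hdv : (p c).val < c.val := hd
  have hpos : 0 < M * flux p c := by omega
  have hF : 0 < flux p c := by
    rcases Nat.eq_zero_or_pos (flux p c) with h0 | h0
    · rw [h0] at hpos; simp at hpos
    · exact h0
  have hM : 0 < M := by
    rcases Nat.eq_zero_or_pos M with h0 | h0
    · rw [h0] at hpos; simp at hpos
    · exact h0
  refine ⟨hF, ?_⟩
  have hcl' := hcl (p c) hd
  unfold cand
  rw [if_neg (not_le.2 hd)]
  have hsub : (univ.filter fun a => a < c ∧ c ≤ p a) ⊆
      (univ.filter fun a => a < c ∧ c ≤ p a ∧ (a ∉ C ∨ a ≤ p c)) ∪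
        (C.filter fun x => p c ≤ x ∧ x < c) := by
    intro a ha
    simp only [mem_filter, mem_univ, true_and] at ha
    simp only [mem_union, mem_filter, mem_univ, true_and]
    by_cases h1 : a ∉ C ∨ a ≤ p c
    · exact Or.inl ⟨ha.1, ha.2, h1⟩
    · push Not at h1
      exact Or.inr ⟨h1.1, h1.2.le, ha.1⟩
  have h1 := (Finset.card_le_card hsub).trans (Finset.card_union_le _ _)
  have h2 : flux p c ≤ (univ.filter fun a => a < c ∧ c ≤ p a ∧ (a ∉ C ∨ a ≤ p c)).card +
      (C.filter fun x => p c ≤ x ∧ x < c).card := h1
  have h3 : 2 * M * (C.filter fun x => p c ≤ x ∧ x < c).card ≤ M * flux p c := by omega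
  have h4 : 2 * (C.filter fun x => p c ≤ x ∧ x < c).card ≤ flux p c := by
    have : M * (2 * (C.filter fun x => p c ≤ x ∧ x < c).card) ≤ M * flux p c := by
      calc M * (2 * (C.filter fun x => p c ≤ x ∧ x < c).card)
          = 2 * M * (C.filter fun x => p c ≤ x ∧ x < c).card := by ring
        _ ≤ M * flux p c := h3
    exact Nat.le_of_mul_le_mul_left this hM
  omega

theorem cand_nonempty {M : ℕ} {C : Finset (Fin k)} {p : Equiv.Perm (Fin k)}
    {c : Fin k} (hu : Usable M p c) (hcl : Clean M C c) : 0 < (cand C p c).card := by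
  by_cases hd : c ≤ p c
  · unfold cand; rw [if_pos hd]; simp
  · have := flux_le_cand (not_le.1 hd) hu hcl
    omega

/-- Flux of the source in terms of the target. -/
theorem flux_swap {p : Equiv.Perm (Fin k)} {c a : Fin k} (hc : c ≤ p c)
    (hac : a < c) (hpa : p a < c) :
    flux (p * Equiv.swap c a) c = flux p c + 1 := by
  unfold flux
  have hset : (univ.filter fun x => x < c ∧ c ≤ (p * Equiv.swap c a) x) =
      insert a (univ.filter fun x => x < c ∧ c ≤ p x) := by
    ext x
    rw [mem_filter, mem_insert, mem_filter, Equiv.Perm.mul_apply]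
    simp only [mem_univ, true_and]
    by_cases hxa : x = a
    · subst hxa
      rw [Equiv.swap_apply_right]
      simp only [true_or, iff_true]
      exact ⟨hac, hc⟩
    · by_cases hxc : x = c
      · subst hxc
        simp [hxa]
      · rw [Equiv.swap_apply_of_ne_of_ne hxc hxa]
        simp [hxa]
  rw [hset, Finset.card_insert_of_notMem]
  simp only [mem_filter, mem_univ, true_and, not_and, not_le]
  intro _; exact hpa

/-- Weight with which a half state chooses the partner a. -/
noncomputable def wt (M : ℕ) (C : Finset (Fin k)) (p : Equiv.Perm (Fin k)) (c a : Fin k) : ℝ :=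
  if Usable M p c ∧ Clean M C c ∧ a ∈ cand C p c then (((cand C p c).card : ℝ))⁻¹ else 0

theorem wt_nonneg (M : ℕ) (C : Finset (Fin k)) (p : Equiv.Perm (Fin k)) (c a : Fin k) :
    0 ≤ wt M C p c a := by
  unfold wt; split_ifs <;> positivity

theorem sum_wt {M : ℕ} {C : Finset (Fin k)} {p : Equiv.Perm (Fin k)} {c : Fin k}
    (hu : Usable M p c) (hcl : Clean M C c) : ∑ a, wt M C p c a = 1 := by
  have h := cand_nonempty hu hcl
  have h1 : ∀ a, wt M C p c a = if a ∈ cand C p c then (((cand C p c).card : ℝ))⁻¹ else 0 := by
    intro a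
    unfold wt
    simp [hu, hcl]
  simp_rw [h1]
  rw [Finset.sum_ite_mem, Finset.univ_inter, Finset.sum_const, nsmul_eq_mul]
  field_simp

/-- The load of one half. -/
theorem half_load (M : ℕ) (C : Finset (Fin k)) (p : Equiv.Perm (Fin k)) (c : Fin k)
    (hc : c ≤ p c) :
    ∑ a, wt M C (p * Equiv.swap c a) c a ≤ 2 * (M : ℝ) + 1 := by
  classical
  set F : ℕ := flux p c with hF
  -- the set of relevant partners
  let T : Finset (Fin k) := univ.filter fun a => a < c ∧ p a < c ∧ c.val ≤ (p a).val + M * (F + 1)
  have hterm : ∀ a, wt M C (p * Equiv.swap c a) c a ≤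
      (if a = c then 1 else 0) + (if a ∈ T then 2 / ((F : ℝ) + 1) else 0) := by
    intro a
    have hnn : (0 : ℝ) ≤ (if a ∈ T then 2 / ((F : ℝ) + 1) else 0) := by
      split_ifs <;> positivity
    by_cases hac : a = c
    · subst hac
      rw [if_pos rfl]
      have : wt M C (p * Equiv.swap a a) a a ≤ 1 := by
        unfold wt
        split_ifs with h
        · have h1 : 1 ≤ (cand C (p * Equiv.swap a a) a).card :=
            Finset.card_pos.2 ⟨a, h.2.2⟩
          have h2 : (1 : ℝ) ≤ ((cand C (p * Equiv.swap a a) a).card : ℝ) := by exact_mod_cast h1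
          exact inv_le_one_of_one_le₀ h2
        · norm_num
      linarith
    · rw [if_neg hac, zero_add]
      unfold wt
      split_ifs with h hT
      · -- main case
        obtain ⟨hu, hcl, hcand⟩ := h
        by_cases hdir : c ≤ (p * Equiv.swap c a) c
        · unfold cand at hcand
          rw [if_pos hdir] at hcand
          exact absurd (by simpa using hcand) hac
        · have hlt := not_le.1 hdir
          obtain ⟨hF0, hF2⟩ := flux_le_cand hlt hu hcl
          have hTm : a < c ∧ p a < c ∧ c.val ≤ (p a).val + M * (F + 1) := by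
            simpa [T] using hT
          have hfl := flux_swap hc hTm.1 hTm.2.1
          rw [hfl] at hF2
          have h3 : ((F : ℝ) + 1) ≤ 2 * ((cand C (p * Equiv.swap c a) c).card : ℝ) := by
            have : (F + 1 : ℕ) ≤ 2 * (cand C (p * Equiv.swap c a) c).card := hF2
            exact_mod_cast this
          have h4 : (0 : ℝ) < ((F : ℝ) + 1) := by positivity
          have h5 : (0 : ℝ) < ((cand C (p * Equiv.swap c a) c).card : ℝ) := by linarith
          rw [inv_eq_one_div, div_le_div_iff₀ h5 h4]
          linarith
      · -- not in T: contradiction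
        exfalso
        obtain ⟨hu, hcl, hcand⟩ := h
        by_cases hdir : c ≤ (p * Equiv.swap c a) c
        · unfold cand at hcand
          rw [if_pos hdir] at hcand
          exact absurd (by simpa using hcand) hac
        · have hlt := not_le.1 hdir
          unfold cand at hcand
          rw [if_neg hdir] at hcand
          simp only [mem_filter, mem_univ, true_and] at hcand
          have hpc : (p * Equiv.swap c a) c = p a := by
            rw [Equiv.Perm.mul_apply, Equiv.swap_apply_left]
          rw [hpc] at hlt
          have hfl := flux_swap hc hcand.1 hlt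
          rcases hu with hu | hu
          · exact hdir hu
          · rw [hpc, hfl] at hu
            apply hT
            simp only [T, mem_filter, mem_univ, true_and]
            exact ⟨hcand.1, hlt, hu⟩
      · exact div_nonneg (by norm_num) (by positivity)
      · exact le_refl _
  have hTcard : T.card ≤ M * (F + 1) := by
    have hmap : ∀ a ∈ T, (p a).val ∈ Finset.Ico (c.val - M * (F + 1)) c.val := by
      intro a ha
      simp only [T, mem_filter, mem_univ, true_and] at ha
      rw [Finset.mem_Ico]
      have : (p a).val < c.val := ha.2.1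
      omega
    have hinj : Set.InjOn (fun a : Fin k => (p a).val) T := by
      intro a _ b _ hab
      exact p.injective (Fin.ext hab)
    have := Finset.card_le_card_of_injOn _ hmap hinj
    rw [Nat.card_Ico] at this
    omega
  calc ∑ a, wt M C (p * Equiv.swap c a) c a
      ≤ ∑ a, ((if a = c then (1 : ℝ) else 0) + (if a ∈ T then 2 / ((F : ℝ) + 1) else 0)) :=
        Finset.sum_le_sum fun a _ => hterm a
    _ = 1 + T.card * (2 / ((F : ℝ) + 1)) := by
        rw [Finset.sum_add_distrib, Finset.sum_ite_eq' univ c, if_pos (mem_univ c),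
          Finset.sum_ite_mem, Finset.univ_inter, Finset.sum_const, nsmul_eq_mul]
    _ ≤ 1 + (M * ((F : ℝ) + 1)) * (2 / ((F : ℝ) + 1)) := by
        have h1 : (T.card : ℝ) ≤ M * ((F : ℝ) + 1) := by exact_mod_cast hTcard
        have h2 : (0 : ℝ) ≤ 2 / ((F : ℝ) + 1) := by positivity
        nlinarith [mul_le_mul_of_nonneg_right h1 h2]
    _ = 2 * (M : ℝ) + 1 := by
        have h4 : ((F : ℝ) + 1) ≠ 0 := by positivity
        field_simp
        ring

end Vale.Agent.P235.S.H885
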