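import Vale.Agent.P235.S.H885.Mis
import Vale.Agent.P235.S.H885.Load

/-!
P235, static lemma (S).  Every state has many good indices; every target has few.
-/

namespace Vale.Agent.P235.S.H885

open Finset

variable {k : ℕ}

/-- Half states. -/
abbrev Half (k : ℕ) := Finset (Fin k) × Equiv.Perm (Fin k)

/-- The constraint of a half state. -/
def Ok (x : Half k) : Prop := ∀ t ∈ x.1, t ≤ x.2 t

instance (x : Half k) : Decidable (Ok x) := by unfold Ok; infer_instance

/-- Level r. -/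
def lev (k r : ℕ) : Finset (Half k × Half k) :=
  univ.filter fun q => Ok q.1 ∧ Ok q.2 ∧ q.1.1.card = r ∧ q.2.1.card = r

/-- Good labels. -/
def Good (M : ℕ) (x : Half k) (c : Fin k) : Prop :=
  c ∉ x.1 ∧ Isolated x.1 c ∧ Usable M x.2 c ∧ Clean M x.1 c

instance (M : ℕ) (x : Half k) (c : Fin k) : Decidable (Good M x c) := by
  unfold Good; infer_instance

/-- Good pairs of labels. -/
def J (M : ℕ) (q : Half k × Half k) : Finset (Fin k × Fin k) :=
  univ.filter fun m => mis q.1.1 m.1 = mis q.2.1 m.2 ∧ Good M q.1 m.1 ∧ Good M q.2 m.2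

theorem bad_card {M : ℕ} (hU : ∀ p : Equiv.Perm (Fin k),
      8 * (univ.filter fun c => ¬ Usable M p c).card ≤ k)
    (hC : ∀ C : Finset (Fin k), (univ.filter fun c => ¬ Clean M C c).card ≤ 2 * M * C.card)
    (x : Half k) :
    8 * (univ.filter fun c => ¬ (Isolated x.1 c ∧ Usable M x.2 c ∧ Clean M x.1 c)).card
      ≤ k + 8 * ((2 * M + 2) * x.1.card) := by
  have hsub : (univ.filter fun c => ¬ (Isolated x.1 c ∧ Usable M x.2 c ∧ Clean M x.1 c)) ⊆
      ((univ.filter fun c => ¬ Isolated x.1 c) ∪ (univ.filter fun c => ¬ Usable M x.2 c)) ∪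
        (univ.filter fun c => ¬ Clean M x.1 c) := by
    intro c hc
    simp only [mem_filter, mem_univ, true_and, mem_union] at hc ⊢
    tauto
  have h1 := (Finset.card_le_card hsub).trans (Finset.card_union_le _ _)
  have h2 := Finset.card_union_le (univ.filter fun c => ¬ Isolated x.1 c)
    (univ.filter fun c => ¬ Usable M x.2 c)
  have h3 := card_not_isolated x.1
  have h4 := hU x.2
  have h5 := hC x.1
  have h6 : (2 * M + 2) * x.1.card = 2 * M * x.1.card + 2 * x.1.card := by ring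
  rw [h6]
  omega

theorem J_card {M : ℕ} (hU : ∀ p : Equiv.Perm (Fin k),
      8 * (univ.filter fun c => ¬ Usable M p c).card ≤ k)
    (hC : ∀ C : Finset (Fin k), (univ.filter fun c => ¬ Clean M C c).card ≤ 2 * M * C.card)
    {r : ℕ} {q : Half k × Half k} (h1 : q.1.1.card = r) (h2 : q.2.1.card = r)
    (hr : 4 * ((4 * M + 5) * r) ≤ k) : k ≤ 2 * (J M q).card := by
  classical
  set C := q.1.1 with hCdef
  set D := q.2.1 with hDdef
  let P : Finset (Fin k × Fin k) := univ.filter fun m => m.1 ∉ C ∧ m.2 ∉ D ∧ mis C m.1 = mis D m.2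
  have hPcard : Cᶜ.card ≤ P.card := by
    have hsub : Cᶜ ⊆ P.image Prod.fst := by
      intro c hc
      have hc' : c ∉ C := by simpa using hc
      obtain ⟨d, hd, hdm⟩ := exists_partner (C := C) (D := D) (by rw [h1, h2]) hc'
      rw [mem_image]
      exact ⟨(c, d), by simp [P, hc', hd, hdm], rfl⟩
    exact (Finset.card_le_card hsub).trans Finset.card_image_le
  let B1 : Finset (Fin k) :=
    univ.filter fun c => ¬ (Isolated q.1.1 c ∧ Usable M q.1.2 c ∧ Clean M q.1.1 c)
  let B2 : Finset (Fin k) :=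
    univ.filter fun c => ¬ (Isolated q.2.1 c ∧ Usable M q.2.2 c ∧ Clean M q.2.1 c)
  have hsub : P ⊆ (J M q ∪ P.filter (fun m => m.1 ∈ B1)) ∪ P.filter (fun m => m.2 ∈ B2) := by
    intro m hm
    have hm' : m.1 ∉ C ∧ m.2 ∉ D ∧ mis C m.1 = mis D m.2 := by simpa [P] using hm
    by_cases g1 : Isolated q.1.1 m.1 ∧ Usable M q.1.2 m.1 ∧ Clean M q.1.1 m.1
    · by_cases g2 : Isolated q.2.1 m.2 ∧ Usable M q.2.2 m.2 ∧ Clean M q.2.1 m.2
      · refine mem_union_left _ (mem_union_left _ ?_)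
        unfold J
        rw [mem_filter]
        exact ⟨mem_univ _, hm'.2.2, ⟨hm'.1, g1⟩, ⟨hm'.2.1, g2⟩⟩
      · refine mem_union_right _ (mem_filter.2 ⟨hm, ?_⟩)
        exact mem_filter.2 ⟨mem_univ _, g2⟩
    · refine mem_union_left _ (mem_union_right _ (mem_filter.2 ⟨hm, ?_⟩))
      exact mem_filter.2 ⟨mem_univ _, g1⟩
  have hi1 : (P.filter (fun m => m.1 ∈ B1)).card ≤ B1.card := by
    apply Finset.card_le_card_of_injOn Prod.fst
    · intro m hm
      exact (mem_filter.1 hm).2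
    · intro m hm m' hm' he
      have a1 : m.1 ∉ C ∧ m.2 ∉ D ∧ mis C m.1 = mis D m.2 := by
        simpa [P] using (mem_filter.1 hm).1
      have a2 : m'.1 ∉ C ∧ m'.2 ∉ D ∧ mis C m'.1 = mis D m'.2 := by
        simpa [P] using (mem_filter.1 hm').1
      have he' : m.1 = m'.1 := he
      have : mis D m.2 = mis D m'.2 := by rw [← a1.2.2, ← a2.2.2, he']
      exact Prod.ext he' (mis_inj a1.2.1 a2.2.1 this)
  have hi2 : (P.filter (fun m => m.2 ∈ B2)).card ≤ B2.card := by
    apply Finset.card_le_card_of_injOn Prod.snd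
    · intro m hm
      exact (mem_filter.1 hm).2
    · intro m hm m' hm' he
      have a1 : m.1 ∉ C ∧ m.2 ∉ D ∧ mis C m.1 = mis D m.2 := by
        simpa [P] using (mem_filter.1 hm).1
      have a2 : m'.1 ∉ C ∧ m'.2 ∉ D ∧ mis C m'.1 = mis D m'.2 := by
        simpa [P] using (mem_filter.1 hm').1
      have he' : m.2 = m'.2 := he
      have : mis C m.1 = mis C m'.1 := by rw [a1.2.2, a2.2.2, he']
      exact Prod.ext (mis_inj a1.1 a2.1 this) he'
  have c1 := (Finset.card_le_card hsub).trans (Finset.card_union_le _ _)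
  have c2 := Finset.card_union_le (J M q) (P.filter (fun m => m.1 ∈ B1))
  have b1 := bad_card hU hC q.1
  have b2 := bad_card hU hC q.2
  have e1 : Cᶜ.card = k - r := by rw [Finset.card_compl, h1]; simp
  rw [← hCdef, h1] at b1
  rw [← hDdef, h2] at b2
  have b1' : 8 * B1.card ≤ k + 8 * ((2 * M + 2) * r) := b1
  have b2' : 8 * B2.card ≤ k + 8 * ((2 * M + 2) * r) := b2
  have hr1 : (4 * M + 5) * r = 2 * ((2 * M + 2) * r) + r := by ring
  rw [hr1] at hr
  rw [e1] at hPcard
  omega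

/-- Pairs of labels that can be removed from a target. -/
def I (q : Half k × Half k) : Finset (Fin k × Fin k) :=
  univ.filter fun m => m.1 ∈ q.1.1 ∧ m.2 ∈ q.2.1 ∧
    mis (q.1.1.erase m.1) m.1 = mis (q.2.1.erase m.2) m.2 ∧
    Isolated (q.1.1.erase m.1) m.1 ∧ Isolated (q.2.1.erase m.2) m.2

theorem I_card (q : Half k × Half k) : (I q).card ≤ q.1.1.card := by
  apply Finset.card_le_card_of_injOn Prod.fst
  · intro m hm
    simp only [I, mem_coe, mem_filter, mem_univ, true_and] at hm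
    exact hm.1
  · intro m hm m' hm' he
    simp only [I, mem_coe, mem_filter, mem_univ, true_and] at hm hm'
    have he' : m.1 = m'.1 := he
    refine Prod.ext he' ?_
    apply isolated_unique hm.2.1 hm'.2.1 hm.2.2.2.2 hm'.2.2.2.2
    rw [← hm.2.2.1, ← hm'.2.2.1, he']

theorem mem_J {M : ℕ} {q : Half k × Half k} {m : Fin k × Fin k} :
    m ∈ J M q ↔ mis q.1.1 m.1 = mis q.2.1 m.2 ∧ Good M q.1 m.1 ∧ Good M q.2 m.2 := by
  unfold J
  rw [mem_filter]
  exact and_iff_right (mem_univ _)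

theorem mem_I {q : Half k × Half k} {m : Fin k × Fin k} :
    m ∈ I q ↔ m.1 ∈ q.1.1 ∧ m.2 ∈ q.2.1 ∧
      mis (q.1.1.erase m.1) m.1 = mis (q.2.1.erase m.2) m.2 ∧
      Isolated (q.1.1.erase m.1) m.1 ∧ Isolated (q.2.1.erase m.2) m.2 := by
  unfold I
  rw [mem_filter]
  exact and_iff_right (mem_univ _)

theorem mem_lev {r : ℕ} {q : Half k × Half k} :
    q ∈ lev k r ↔ Ok q.1 ∧ Ok q.2 ∧ q.1.1.card = r ∧ q.2.1.card = r := by
  unfold lev
  rw [mem_filter]
  exact and_iff_right (mem_univ _)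

end Vale.Agent.P235.S.H885
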