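import Vale.Agent.P235.S.H885.JCard

/-!
P235, static lemma (S).  The level inequality by double counting.
-/

namespace Vale.Agent.P235.S.H885

open Finset

variable {k : ℕ}

/-- Add the label c, exchange the rows of c and a. -/
def upd (x : Half k) (c a : Fin k) : Half k := (insert c x.1, x.2 * Equiv.swap c a)

/-- Remove the label c, exchange the rows of c and a. -/
def dnd (x : Half k) (c a : Fin k) : Half k := (x.1.erase c, x.2 * Equiv.swap c a)

theorem dnd_upd {x : Half k} {c : Fin k} (hc : c ∉ x.1) (a : Fin k) :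
    dnd (upd x c a) c a = x := by
  unfold dnd upd
  refine Prod.ext ?_ ?_
  · simp [Finset.erase_insert hc]
  · simp [mul_assoc]

theorem ok_upd {x : Half k} (hx : Ok x) {c a : Fin k}
    (ha : a ∈ cand x.1 x.2 c) : Ok (upd x c a) := by
  intro t ht
  unfold upd at ht ⊢
  simp only [mem_insert] at ht
  simp only [Equiv.Perm.mul_apply]
  unfold cand at ha
  by_cases hd : c ≤ x.2 c
  · rw [if_pos hd, mem_singleton] at ha
    subst ha
    rw [Equiv.swap_self, Equiv.refl_apply]
    rcases ht with rfl | ht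
    · exact hd
    · exact hx t ht
  · rw [if_neg hd] at ha
    simp only [mem_filter, mem_univ, true_and] at ha
    rcases ht with rfl | ht
    · rw [Equiv.swap_apply_left]
      exact ha.2.1
    · by_cases htc : t = c
      · subst htc
        rw [Equiv.swap_apply_left]
        exact ha.2.1
      · by_cases hta : t = a
        · subst hta
          rw [Equiv.swap_apply_right]
          rcases ha.2.2 with h | h
          · exact absurd ht h
          · exact h
        · rw [Equiv.swap_apply_of_ne_of_ne htc hta]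
          exact hx t ht

/-- The move. -/
def T (q : Half k × Half k) (x : (Fin k × Fin k) × (Fin k × Fin k)) : Half k × Half k :=
  (upd q.1 x.1.1 x.2.1, upd q.2 x.1.2 x.2.2)

/-- Weight of the move x at the source q. -/
noncomputable def W (M : ℕ) (q : Half k × Half k) (x : (Fin k × Fin k) × (Fin k × Fin k)) : ℝ :=
  if x.1 ∈ J M q then wt M q.1.1 q.1.2 x.1.1 x.2.1 * wt M q.2.1 q.2.2 x.1.2 x.2.2 else 0

/-- Weight of the move x at the target q. -/
noncomputable def W' (M : ℕ) (q : Half k × Half k) (x : (Fin k × Fin k) × (Fin k × Fin k)) : ℝ :=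
  if x.1 ∈ I q then
    wt M (q.1.1.erase x.1.1) (q.1.2 * Equiv.swap x.1.1 x.2.1) x.1.1 x.2.1 *
    wt M (q.2.1.erase x.1.2) (q.2.2 * Equiv.swap x.1.2 x.2.2) x.1.2 x.2.2 else 0

theorem W_nonneg (M : ℕ) (q : Half k × Half k) (x) : 0 ≤ W M q x := by
  unfold W; split_ifs
  · exact mul_nonneg (wt_nonneg _ _ _ _ _) (wt_nonneg _ _ _ _ _)
  · exact le_refl _

theorem W'_nonneg (M : ℕ) (q : Half k × Half k) (x) : 0 ≤ W' M q x := by
  unfold W'; split_ifs
  · exact mul_nonneg (wt_nonneg _ _ _ _ _) (wt_nonneg _ _ _ _ _)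
  · exact le_refl _

theorem sum_W (M : ℕ) (q : Half k × Half k) : ∑ x, W M q x = (J M q).card := by
  classical
  rw [Fintype.sum_prod_type]
  have h : ∀ m : Fin k × Fin k, ∑ y : Fin k × Fin k, W M q (m, y) =
      if m ∈ J M q then (1 : ℝ) else 0 := by
    intro m
    unfold W
    by_cases hm : m ∈ J M q
    · simp only [hm, if_true]
      have hm' := mem_J.1 hm
      rw [Fintype.sum_prod_type]
      simp only
      rw [← Fintype.sum_mul_sum, sum_wt hm'.2.1.2.2.1 hm'.2.1.2.2.2,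
        sum_wt hm'.2.2.2.2.1 hm'.2.2.2.2.2, one_mul]
    · simp [hm]
  simp_rw [h]
  simp

theorem sum_W' {M r : ℕ} {q : Half k × Half k} (hq : q ∈ lev k r) :
    ∑ x, W' M q x ≤ r * (2 * (M : ℝ) + 1) ^ 2 := by
  classical
  rw [Fintype.sum_prod_type]
  have hq := mem_lev.1 hq
  have h : ∀ m : Fin k × Fin k, ∑ y : Fin k × Fin k, W' M q (m, y) ≤
      if m ∈ I q then (2 * (M : ℝ) + 1) ^ 2 else 0 := by
    intro m
    unfold W'
    by_cases hm : m ∈ I q
    · simp only [hm, if_true]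
      have hm' := mem_I.1 hm
      rw [Fintype.sum_prod_type]
      simp only
      rw [← Fintype.sum_mul_sum, sq]
      have e1 := half_load M (q.1.1.erase m.1) q.1.2 m.1 (hq.1 m.1 hm'.1)
      have e2 := half_load M (q.2.1.erase m.2) q.2.2 m.2 (hq.2.1 m.2 hm'.2.1)
      apply mul_le_mul e1 e2
      · exact Finset.sum_nonneg fun _ _ => wt_nonneg _ _ _ _ _
      · positivity
    · simp [hm]
  calc ∑ m : Fin k × Fin k, ∑ y : Fin k × Fin k, W' M q (m, y)
      ≤ ∑ m : Fin k × Fin k, (if m ∈ I q then (2 * (M : ℝ) + 1) ^ 2 else 0) :=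
        Finset.sum_le_sum fun m _ => h m
    _ = (I q).card * (2 * (M : ℝ) + 1) ^ 2 := by
        rw [Finset.sum_ite_mem, Finset.univ_inter, Finset.sum_const, nsmul_eq_mul]
    _ ≤ r * (2 * (M : ℝ) + 1) ^ 2 := by
        have h1 : (I q).card ≤ r := by
          have := I_card q
          rw [hq.2.2.1] at this
          exact this
        have h2 : ((I q).card : ℝ) ≤ r := by exact_mod_cast h1
        exact mul_le_mul_of_nonneg_right h2 (by positivity)

/-- A function which increases along the moves. -/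
def Mono (F : Half k × Half k → ℝ) : Prop :=
  ∀ q : Half k × Half k, Ok q.1 → Ok q.2 → q.1.1.card = q.2.1.card →
    ∀ c d a b : Fin k, c ∉ q.1.1 → d ∉ q.2.1 → mis q.1.1 c = mis q.2.1 d →
      a ∈ cand q.1.1 q.1.2 c → b ∈ cand q.2.1 q.2.2 d →
      F q ≤ F (upd q.1 c a, upd q.2 d b)

theorem wt_pos_mem {M : ℕ} {C : Finset (Fin k)} {p : Equiv.Perm (Fin k)} {c a : Fin k}
    (h : wt M C p c a ≠ 0) : a ∈ cand C p c := by
  unfold wt at h
  by_contra hcon
  apply h
  rw [if_neg]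
  rintro ⟨_, _, h3⟩
  exact hcon h3

theorem W_supp {M : ℕ} {q : Half k × Half k} {x} (h : W M q x ≠ 0) :
    x.1 ∈ J M q ∧ x.2.1 ∈ cand q.1.1 q.1.2 x.1.1 ∧ x.2.2 ∈ cand q.2.1 q.2.2 x.1.2 := by
  unfold W at h
  split_ifs at h with hm
  · exact ⟨hm, wt_pos_mem (left_ne_zero_of_mul h), wt_pos_mem (right_ne_zero_of_mul h)⟩
  · exact absurd rfl h

/-- One fixed move. -/
theorem fixed_move {M r : ℕ} (F : Half k × Half k → ℝ) (hF0 : ∀ q, 0 ≤ F q)
    (hF : Mono F) (x : (Fin k × Fin k) × (Fin k × Fin k)) :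
    ∑ q ∈ lev k r, W M q x * F q ≤ ∑ q ∈ lev k (r + 1), W' M q x * F q := by
  classical
  let S := (lev k r).filter fun q => W M q x ≠ 0
  have h1 : ∑ q ∈ lev k r, W M q x * F q = ∑ q ∈ S, W M q x * F q := by
    rw [Finset.sum_filter]
    apply Finset.sum_congr rfl
    intro q _
    by_cases h : W M q x = 0
    · simp [h]
    · simp [h]
  have hprop : ∀ q ∈ S, T q x ∈ lev k (r + 1) ∧ W M q x * F q ≤ W' M (T q x) x * F (T q x) := by
    intro q hq
    obtain ⟨hq1, hq2⟩ := mem_filter.1 hq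
    obtain ⟨hJ, ha, hb⟩ := W_supp hq2
    have hq1 := mem_lev.1 hq1
    have hJ' := mem_J.1 hJ
    have hc : x.1.1 ∉ q.1.1 := hJ'.2.1.1
    have hd : x.1.2 ∉ q.2.1 := hJ'.2.2.1
    refine ⟨?_, ?_⟩
    · rw [mem_lev]
      refine ⟨ok_upd hq1.1 ha, ok_upd hq1.2.1 hb, ?_, ?_⟩
      · show (insert x.1.1 q.1.1).card = r + 1
        rw [Finset.card_insert_of_notMem hc, hq1.2.2.1]
      · show (insert x.1.2 q.2.1).card = r + 1
        rw [Finset.card_insert_of_notMem hd, hq1.2.2.2]
    · have hmono := hF q hq1.1 hq1.2.1 (by rw [hq1.2.2.1, hq1.2.2.2]) x.1.1 x.1.2 x.2.1 x.2.2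
        hc hd hJ'.1 ha hb
      have hW : W' M (T q x) x = W M q x := by
        have hI : x.1 ∈ I (T q x) := by
          rw [mem_I]
          simp only [T, upd]
          rw [Finset.erase_insert hc, Finset.erase_insert hd]
          exact ⟨mem_insert_self _ _, mem_insert_self _ _, hJ'.1, hJ'.2.1.2.1, hJ'.2.2.2.1⟩
        unfold W' W
        rw [if_pos hI, if_pos hJ]
        simp only [T, upd]
        rw [Finset.erase_insert hc, Finset.erase_insert hd]
        simp [mul_assoc]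
      rw [hW]
      exact mul_le_mul_of_nonneg_left hmono (W_nonneg _ _ _)
  have hinj : Set.InjOn (fun q => T q x) (S : Set (Half k × Half k)) := by
    intro q hq q' hq' he
    have hq2 := W_supp (mem_filter.1 hq).2
    have hq2' := W_supp (mem_filter.1 hq').2
    have hJ := mem_J.1 hq2.1
    have hJ' := mem_J.1 hq2'.1
    have he' : T q x = T q' x := he
    have e1 : upd q.1 x.1.1 x.2.1 = upd q'.1 x.1.1 x.2.1 := congrArg Prod.fst he'
    have e2 : upd q.2 x.1.2 x.2.2 = upd q'.2 x.1.2 x.2.2 := congrArg Prod.snd he'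
    refine Prod.ext ?_ ?_
    · rw [← dnd_upd hJ.2.1.1 x.2.1, e1, dnd_upd hJ'.2.1.1]
    · rw [← dnd_upd hJ.2.2.1 x.2.2, e2, dnd_upd hJ'.2.2.1]
  calc ∑ q ∈ lev k r, W M q x * F q = ∑ q ∈ S, W M q x * F q := h1
    _ ≤ ∑ q ∈ S, W' M (T q x) x * F (T q x) :=
        Finset.sum_le_sum fun q hq => (hprop q hq).2
    _ = ∑ q ∈ S.image (fun q => T q x), W' M q x * F q := by
        rw [Finset.sum_image hinj]
    _ ≤ ∑ q ∈ lev k (r + 1), W' M q x * F q := by
        apply Finset.sum_le_sum_of_subset_of_nonneg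
        · intro q hq
          obtain ⟨q0, hq0, rfl⟩ := mem_image.1 hq
          exact (hprop q0 hq0).1
        · intro q _ _
          exact mul_nonneg (W'_nonneg _ _ _) (hF0 q)

theorem level_step {M : ℕ} (hU : ∀ p : Equiv.Perm (Fin k),
      8 * (univ.filter fun c => ¬ Usable M p c).card ≤ k)
    (hC : ∀ C : Finset (Fin k), (univ.filter fun c => ¬ Clean M C c).card ≤ 2 * M * C.card)
    {r : ℕ} (hr : 4 * ((4 * M + 5) * r) ≤ k) (hr2 : 4 * ((r + 1) * (2 * M + 1) ^ 2) ≤ k)
    (F : Half k × Half k → ℝ) (hF0 : ∀ q, 0 ≤ F q) (hF : Mono F) :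
    2 * ∑ q ∈ lev k r, F q ≤ ∑ q ∈ lev k (r + 1), F q := by
  have hk : (0 : ℝ) < k := by
    have : 0 < k := by
      have h1 : 0 < (r + 1) * (2 * M + 1) ^ 2 := by positivity
      omega
    exact_mod_cast this
  have s1 : (k : ℝ) * ∑ q ∈ lev k r, F q ≤ 2 * ∑ q ∈ lev k r, ∑ x, W M q x * F q := by
    rw [Finset.mul_sum, Finset.mul_sum]
    apply Finset.sum_le_sum
    intro q hq
    rw [← Finset.sum_mul, sum_W]
    have hq := mem_lev.1 hq
    have h1 := J_card hU hC hq.2.2.1 hq.2.2.2 hr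
    have h2 : (k : ℝ) ≤ 2 * ((J M q).card : ℝ) := by exact_mod_cast h1
    calc (k : ℝ) * F q ≤ (2 * ((J M q).card : ℝ)) * F q :=
          mul_le_mul_of_nonneg_right h2 (hF0 q)
      _ = 2 * (((J M q).card : ℝ) * F q) := by ring
  have s2 : ∑ q ∈ lev k r, ∑ x, W M q x * F q ≤ ∑ q ∈ lev k (r + 1), ∑ x, W' M q x * F q := by
    rw [Finset.sum_comm]
    rw [Finset.sum_comm (s := lev k (r + 1))]
    exact Finset.sum_le_sum fun x _ => fixed_move F hF0 hF x
  have s3 : ∑ q ∈ lev k (r + 1), ∑ x, W' M q x * F q ≤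
      (((r : ℝ) + 1) * (2 * (M : ℝ) + 1) ^ 2) * ∑ q ∈ lev k (r + 1), F q := by
    rw [Finset.mul_sum]
    apply Finset.sum_le_sum
    intro q hq
    rw [← Finset.sum_mul]
    have h1 := sum_W' (M := M) hq
    push_cast at h1
    exact mul_le_mul_of_nonneg_right h1 (hF0 q)
  have hS : 0 ≤ ∑ q ∈ lev k (r + 1), F q := Finset.sum_nonneg fun q _ => hF0 q
  have hr2' : 4 * (((r : ℝ) + 1) * (2 * (M : ℝ) + 1) ^ 2) ≤ k := by exact_mod_cast hr2
  have s4 : (k : ℝ) * ∑ q ∈ lev k r, F q ≤ (k : ℝ) * ((∑ q ∈ lev k (r + 1), F q) / 2) := by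
    nlinarith [mul_le_mul_of_nonneg_right hr2' hS]
  have s5 := le_of_mul_le_mul_left s4 hk
  linarith

end Vale.Agent.P235.S.H885
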