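import Vale.Agent.P235.S.H885.Defs

/-!
P235, static lemma (S).  Counting missing labels; isolated labels.
-/

namespace Vale.Agent.P235.S.H885

open Finset

variable {k : ℕ}

theorem mis_lt {C : Finset (Fin k)} {c c' : Fin k} (h : c < c') (hc : c ∉ C) :
    mis C c < mis C c' := by
  unfold mis
  apply Finset.card_lt_card
  refine ⟨fun x hx => ?_, fun hsub => ?_⟩
  · simp only [mem_filter, mem_univ, true_and] at hx ⊢
    exact ⟨hx.1.trans h, hx.2⟩
  · have : c ∈ univ.filter fun x => x < c ∧ x ∉ C := by
      apply hsub
      simp [h, hc]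
    simp at this

theorem mis_inj {C : Finset (Fin k)} {c c' : Fin k} (hc : c ∉ C) (hc' : c' ∉ C)
    (h : mis C c = mis C c') : c = c' := by
  rcases lt_trichotomy c c' with h1 | h1 | h1
  · exact absurd h (mis_lt h1 hc).ne
  · exact h1
  · exact absurd h (mis_lt h1 hc').ne'

theorem mis_lt_card {C : Finset (Fin k)} {c : Fin k} (hc : c ∉ C) :
    mis C c < Cᶜ.card := by
  unfold mis
  apply Finset.card_lt_card
  refine ⟨fun x hx => ?_, fun hsub => ?_⟩
  · simp only [mem_filter, mem_univ, true_and] at hx
    simpa using hx.2
  · have : c ∈ univ.filter fun x => x < c ∧ x ∉ C := by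
      apply hsub
      simpa using hc
    simp at this

/-- Every rank is attained. -/
theorem exists_mis {D : Finset (Fin k)} {i : ℕ} (hi : i < Dᶜ.card) :
    ∃ d, d ∉ D ∧ mis D d = i := by
  have hmap : ∀ d ∈ Dᶜ, mis D d ∈ range (Dᶜ.card) := by
    intro d hd
    rw [mem_range]
    exact mis_lt_card (by simpa using hd)
  have hinj : ∀ d ∈ Dᶜ, ∀ d' ∈ Dᶜ, mis D d = mis D d' → d = d' := by
    intro d hd d' hd' h
    exact mis_inj (by simpa using hd) (by simpa using hd') h
  have himg : (Dᶜ).image (mis D) = range (Dᶜ.card) := by
    apply Finset.eq_of_subset_of_card_le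
    · intro x hx
      obtain ⟨d, hd, rfl⟩ := mem_image.1 hx
      exact hmap d hd
    · rw [Finset.card_image_of_injOn (fun d hd d' hd' h => hinj d hd d' hd' h), card_range]
  have : i ∈ (Dᶜ).image (mis D) := by
    rw [himg]; exact mem_range.2 hi
  obtain ⟨d, hd, hdi⟩ := mem_image.1 this
  exact ⟨d, by simpa using hd, hdi⟩

theorem exists_partner {C D : Finset (Fin k)} (h : C.card = D.card) {c : Fin k} (hc : c ∉ C) :
    ∃ d, d ∉ D ∧ mis D d = mis C c := by
  apply exists_mis
  have := mis_lt_card hc
  rw [Finset.card_compl] at this ⊢
  omega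

/-- At most two labels per element are not isolated. -/
theorem card_not_isolated (C : Finset (Fin k)) :
    (univ.filter fun c => ¬ Isolated C c).card ≤ 2 * C.card := by
  classical
  have hsub : (univ.filter fun c => ¬ Isolated C c) ⊆
      C.biUnion fun x => (univ.filter fun c : Fin k => x.val + 1 = c.val) ∪
        (univ.filter fun c : Fin k => c.val + 1 = x.val) := by
    intro c hc
    simp only [mem_filter, mem_univ, true_and, Isolated, not_forall] at hc
    obtain ⟨x, hx, hn⟩ := hc
    simp only [mem_biUnion, mem_union, mem_filter, mem_univ, true_and]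
    refine ⟨x, hx, ?_⟩
    by_contra hcon
    push Not at hcon
    exact hn hcon
  refine (Finset.card_le_card hsub).trans ?_
  refine (Finset.card_biUnion_le).trans ?_
  have : ∀ x ∈ C, ((univ.filter fun c : Fin k => x.val + 1 = c.val) ∪
        (univ.filter fun c : Fin k => c.val + 1 = x.val)).card ≤ 2 := by
    intro x _
    refine (Finset.card_union_le _ _).trans ?_
    have h1 : (univ.filter fun c : Fin k => x.val + 1 = c.val).card ≤ 1 := by
      apply Finset.card_le_one.2
      intro a ha b hb
      simp only [mem_filter, mem_univ, true_and] at ha hb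
      exact Fin.ext (by omega)
    have h2 : (univ.filter fun c : Fin k => c.val + 1 = x.val).card ≤ 1 := by
      apply Finset.card_le_one.2
      intro a ha b hb
      simp only [mem_filter, mem_univ, true_and] at ha hb
      exact Fin.ext (by omega)
    omega
  calc _ ≤ ∑ x ∈ C, 2 := Finset.sum_le_sum this
    _ = 2 * C.card := by simp [mul_comm]

/-- Two isolated elements of C' never have the same number of missing labels below. -/
theorem isolated_unique {E : Finset (Fin k)} {d d' : Fin k} (hd : d ∈ E) (hd' : d' ∈ E)
    (hi : Isolated (E.erase d) d) (hi' : Isolated (E.erase d') d')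
    (h : mis (E.erase d) d = mis (E.erase d') d') : d = d' := by
  have key : ∀ {d d' : Fin k}, d ∈ E → d' ∈ E → Isolated (E.erase d) d → d < d' →
      mis (E.erase d) d < mis (E.erase d') d' := by
    intro d d' hd hd' hi hlt
    have hne : d.val + 1 ≠ d'.val := by
      have := (hi d' (by simp [hd', hlt.ne'])).2
      exact this
    have hlt' : d.val < d'.val := hlt
    have hk : d.val + 1 < k := by have := d'.isLt; omega
    let e : Fin k := ⟨d.val + 1, hk⟩
    have he : e ∉ E := by
      intro hE
      have := (hi e (by
        simp only [mem_erase]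
        exact ⟨by intro hh; have := congrArg Fin.val hh; simp [e] at this, hE⟩)).2
      exact this rfl
    unfold mis
    apply Finset.card_lt_card
    refine ⟨fun x hx => ?_, fun hsub => ?_⟩
    · simp only [mem_filter, mem_univ, true_and, mem_erase, not_and] at hx ⊢
      refine ⟨hx.1.trans hlt, fun _ => ?_⟩
      exact hx.2 hx.1.ne
    · have h1 : e ∈ univ.filter fun x => x < d' ∧ x ∉ E.erase d' := by
        simp only [mem_filter, mem_univ, true_and, mem_erase, not_and]
        refine ⟨?_, fun _ => he⟩
        show e.val < d'.val
        simp only [e]; omega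
      have h2 := hsub h1
      simp only [mem_filter, mem_univ, true_and] at h2
      have : e.val < d.val := h2.1
      simp only [e] at this; omega
  rcases lt_trichotomy d d' with h1 | h1 | h1
  · exact absurd h (key hd hd' hi h1).ne
  · exact h1
  · exact absurd h (key hd' hd hi' h1).ne'

end Vale.Agent.P235.S.H885
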