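import Vale.Agent.P235.S.H885.Band

/-!
P235, static lemma (S).  The moves are steps up inside the band.
-/

namespace Vale.Agent.P235.S.H885

open Finset

variable {k : ℕ}

theorem swap_pair (s : Bool) (c a t : Fin k) :
    Equiv.swap (s, c) (s, a) (s, t) = (s, Equiv.swap c a t) := by
  by_cases h1 : t = c
  · subst h1; simp
  · by_cases h2 : t = a
    · subst h2; simp
    · rw [Equiv.swap_apply_of_ne_of_ne h1 h2, Equiv.swap_apply_of_ne_of_ne]
      · intro hh; exact h1 (Prod.mk.inj hh).2
      · intro hh; exact h2 (Prod.mk.inj hh).2

theorem swap_pair_ne {s s' : Bool} (hs : s' ≠ s) (c a t : Fin k) :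
    Equiv.swap (s, c) (s, a) (s', t) = (s', t) := by
  rw [Equiv.swap_apply_of_ne_of_ne]
  · intro hh; exact hs (Prod.mk.inj hh).1
  · intro hh; exact hs (Prod.mk.inj hh).1

/-- Exchange two rows of one half. -/
theorem phi_rows (S : Bool → Finset (Fin k)) {P P' : Bool → Equiv.Perm (Fin k)}
    (h : ∀ s, (S s).card = (S (!s)).card) (s : Bool) (c a : Fin k)
    (h1 : P' s = P s * Equiv.swap c a) (h2 : P' (!s) = P (!s)) :
    phi S P' h = phi S P h * Equiv.swap (posE k (s, P s c)) (posE k (s, P s a)) := by
  have hr : rE P' = (Equiv.swap (s, c) (s, a)).trans (rE P) := by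
    apply Equiv.ext
    rintro ⟨b, t⟩
    rw [Equiv.trans_apply]
    by_cases hb : b = s
    · subst hb
      rw [swap_pair, rE_apply, rE_apply, h1]
      rfl
    · have hb' : b = !s := by
        cases b <;> cases s <;> simp_all
      subst hb'
      rw [swap_pair_ne hb, rE_apply, rE_apply, h2]
  have e1 := swap_mul ((rE P).trans (posE k)) ((lE S h).trans (valE k)) (s, c) (s, a)
  have e2 : phi S P' h = ((rE P).trans (posE k)).symm.trans
      ((Equiv.swap (s, c) (s, a)).trans ((lE S h).trans (valE k))) := by
    unfold phi
    rw [hr]
    rfl
  rw [e2, ← e1]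
  rfl

/-- Insert a label in both halves. -/
theorem phi_ins {S S' : Bool → Finset (Fin k)} (P : Bool → Equiv.Perm (Fin k))
    (h : ∀ s, (S s).card = (S (!s)).card) (h' : ∀ s, (S' s).card = (S' (!s)).card)
    (c d : Fin k) (hc : c ∉ S true) (hd : d ∉ S false) (hm : mis (S true) c = mis (S false) d)
    (h1 : S' true = insert c (S true)) (h2 : S' false = insert d (S false)) :
    phi S' P h' = phi S P h *
      Equiv.swap (posE k (true, P true c)) (posE k (false, P false d)) := by
  have hcd : th (S true) (S false) c = d := th_eq (h true) hc hd hm
  have hdc : th (S false) (S true) d = c := th_eq (h false) hd hc hm.symm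
  have hne : ((true, c) : Bool × Fin k) ≠ (false, d) := by
    intro hh; exact absurd (Prod.mk.inj hh).1 (by simp)
  have hl : lE S' h' = (Equiv.swap (true, c) (false, d)).trans (lE S h) := by
    apply Equiv.ext
    rintro ⟨b, t⟩
    rw [Equiv.trans_apply]
    show lf S' (b, t) = lf S (Equiv.swap (true, c) (false, d) (b, t))
    cases b
    · by_cases htd : t = d
      · subst htd
        rw [Equiv.swap_apply_right, lf_mem (by rw [h2]; exact mem_insert_self _ _), lf_not hc]
        simp only [Bool.not_false, Bool.not_true]
        rw [hcd]
      · rw [Equiv.swap_apply_of_ne_of_ne (by intro hh; exact absurd (Prod.mk.inj hh).1 (by simp))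
          (by intro hh; exact htd (Prod.mk.inj hh).2)]
        by_cases ht : t ∈ S false
        · rw [lf_mem ht, lf_mem (by rw [h2]; exact mem_insert_of_mem ht)]
        · rw [lf_not ht, lf_not (by rw [h2]; simp [htd, ht])]
          simp only [Bool.not_false]
          have hcardf : (S false).card = (S true).card := h false
          rw [h1, h2, th_insert hcardf hd hc hm.symm ht htd]
    · by_cases htc : t = c
      · subst htc
        rw [Equiv.swap_apply_left, lf_mem (by rw [h1]; exact mem_insert_self _ _), lf_not hd]
        simp only [Bool.not_false, Bool.not_true]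
        rw [hdc]
      · rw [Equiv.swap_apply_of_ne_of_ne (by intro hh; exact htc (Prod.mk.inj hh).2)
          (by intro hh; exact absurd (Prod.mk.inj hh).1 (by simp))]
        by_cases ht : t ∈ S true
        · rw [lf_mem ht, lf_mem (by rw [h1]; exact mem_insert_of_mem ht)]
        · rw [lf_not ht, lf_not (by rw [h1]; simp [htc, ht])]
          simp only [Bool.not_true]
          have hcardt : (S true).card = (S false).card := h true
          rw [h1, h2, th_insert hcardt hc hd hm ht htc]
  have e1 := swap_mul ((rE P).trans (posE k)) ((lE S h).trans (valE k)) (true, c) (false, d)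
  have e2 : phi S' P h' = ((rE P).trans (posE k)).symm.trans
      ((Equiv.swap (true, c) (false, d)).trans ((lE S h).trans (valE k))) := by
    unfold phi
    rw [hl]
    rfl
  rw [e2, ← e1]
  rfl

/-- f increases along the steps up inside the band. -/
def IncBand (f : Equiv.Perm (Fin (2 * k)) → ℝ) : Prop :=
  ∀ v ∈ band k, ∀ i j : Fin (2 * k), i < j → v i < v j → v * Equiv.swap i j ∈ band k →
    f v ≤ f (v * Equiv.swap i j)

/-- Constraint for both halves. -/
def OkB (S : Bool → Finset (Fin k)) (P : Bool → Equiv.Perm (Fin k)) : Prop :=
  ∀ s, ∀ t ∈ S s, t ≤ P s t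

theorem step_rows {f : Equiv.Perm (Fin (2 * k)) → ℝ} (hf : IncBand f)
    {S : Bool → Finset (Fin k)} {P P' : Bool → Equiv.Perm (Fin k)}
    (h : ∀ s, (S s).card = (S (!s)).card) (hok : OkB S P) (hok' : OkB S P')
    (s : Bool) (c a : Fin k) (hc : c ∉ S s) (ha : a ∈ cand (S s) (P s) c)
    (h1 : P' s = P s * Equiv.swap c a) (h2 : P' (!s) = P (!s)) :
    f (phi S P h) ≤ f (phi S P' h) := by
  by_cases hd : c ≤ P s c
  · have hac : a = c := by
      unfold cand at ha
      rw [if_pos hd] at ha
      simpa using ha
    have hP : P' = P := by
      funext b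
      by_cases hb : b = s
      · subst hb; rw [h1, hac]; simp [Equiv.swap_self]; rfl
      · have hb' : b = !s := by cases b <;> cases s <;> simp_all
        rw [hb', h2]
    rw [hP]
  · have ha' : a < c ∧ c ≤ P s a ∧ (a ∉ S s ∨ a ≤ P s c) := by
      unfold cand at ha
      rw [if_neg hd, mem_filter] at ha
      exact ha.2
    have hlt : P s c < P s a := (not_le.1 hd).trans_le ha'.2.1
    have hv := phi_rows S h s c a h1 h2
    have hb1 := phi_band h hok
    have hb2 := phi_band h hok'
    have hcv : c.val < k := c.isLt
    have hav : a.val < c.val := ha'.1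
    have hltv : (P s c).val < (P s a).val := hlt
    have hPa := (P s a).isLt
    -- the letter at the row of a is higher
    cases s
    · -- right half: positions are reversed
      have hsw : Equiv.swap (posE k (false, P false c)) (posE k (false, P false a)) =
          Equiv.swap (posE k (false, P false a)) (posE k (false, P false c)) :=
        Equiv.swap_comm _ _
      rw [hsw] at hv
      rw [hv] at hb2 ⊢
      refine hf _ hb1 _ _ ?_ ?_ hb2
      · show (posE k (false, P false a)).val < (posE k (false, P false c)).val
        rw [posE_false, posE_false]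
        omega
      · rw [phi_apply, phi_apply, lf_not hc]
        show (valE k (lf S (false, a))).val < (valE k (false, _)).val
        by_cases hm : a ∈ S false
        · rw [lf_mem hm]
          simp only [Bool.not_false]
          rw [valE_true, valE_false]
          omega
        · rw [lf_not hm]
          rw [valE_false, valE_false]
          have := th_lt (h false) hm hc ha'.1
          have hh : (th (S false) (S (!false)) a).val < (th (S false) (S (!false)) c).val := this
          omega
    · rw [hv] at hb2 ⊢
      refine hf _ hb1 _ _ ?_ ?_ hb2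
      · show (posE k (true, P true c)).val < (posE k (true, P true a)).val
        rw [posE_true, posE_true]
        exact hltv
      · rw [phi_apply, phi_apply, lf_not hc]
        show (valE k (true, _)).val < (valE k (lf S (true, a))).val
        by_cases hm : a ∈ S true
        · rw [lf_mem hm]
          simp only [Bool.not_true]
          rw [valE_true, valE_false]
          omega
        · rw [lf_not hm]
          rw [valE_true, valE_true]
          have := th_lt (h true) hm hc ha'.1
          have hh : (th (S true) (S (!true)) a).val < (th (S true) (S (!true)) c).val := this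
          have h3 := (th (S true) (S (!true)) c).isLt
          omega

theorem step_ins {f : Equiv.Perm (Fin (2 * k)) → ℝ} (hf : IncBand f)
    {S S' : Bool → Finset (Fin k)} {P : Bool → Equiv.Perm (Fin k)}
    (h : ∀ s, (S s).card = (S (!s)).card) (h' : ∀ s, (S' s).card = (S' (!s)).card)
    (hok : OkB S P) (hok' : OkB S' P)
    (c d : Fin k) (hc : c ∉ S true) (hd : d ∉ S false) (hm : mis (S true) c = mis (S false) d)
    (h1 : S' true = insert c (S true)) (h2 : S' false = insert d (S false)) :
    f (phi S P h) ≤ f (phi S' P h') := by
  have hv := phi_ins P h h' c d hc hd hm h1 h2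
  have hb1 := phi_band h hok
  have hb2 := phi_band h' hok'
  rw [hv] at hb2 ⊢
  refine hf _ hb1 _ _ ?_ ?_ hb2
  · show (posE k (true, P true c)).val < (posE k (false, P false d)).val
    rw [posE_true, posE_false]
    have := (P true c).isLt
    have := (P false d).isLt
    omega
  · rw [phi_apply, phi_apply, lf_not hc, lf_not hd]
    show (valE k (true, _)).val < (valE k (false, _)).val
    rw [valE_true, valE_false]
    have := (th (S true) (S (!true)) c).isLt
    omega

end Vale.Agent.P235.S.H885
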